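import Mathlib

/-!
P220 (helper971): transitivity of the unitary group on unitary pairs, by complex reflections.
-/

namespace Vale.Agent.P220.R2.H971

section

variable {V : Type} [NormedAddCommGroup V] [InnerProductSpace ℝ V]

theorem skew {J : V ≃ₗᵢ[ℝ] V} (hJ : ∀ x, J (J x) = -x) (x y : V) :
    (inner ℝ x (J y) : ℝ) = -inner ℝ (J x) y := by
  have h := J.inner_map_map x (J y)
  rw [hJ, inner_neg_right] at h
  linarith

theorem self0 {J : V ≃ₗᵢ[ℝ] V} (hJ : ∀ x, J (J x) = -x) (x : V) :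
    (inner ℝ x (J x) : ℝ) = 0 := by
  have h := skew hJ x x
  rw [real_inner_comm x (J x)] at h
  linarith [real_inner_comm x (J x)]

theorem expand {J : V ≃ₗᵢ[ℝ] V} (hJ : ∀ x, J (J x) = -x) (x w : V) (s t : ℝ) :
    ‖x - s • w - t • J w‖ ^ 2 = ‖x‖ ^ 2 - 2 * s * inner ℝ w x - 2 * t * inner ℝ (J w) x +
      (s ^ 2 + t ^ 2) * ‖w‖ ^ 2 := by
  have h0 : (inner ℝ w (J w) : ℝ) = 0 := self0 hJ w
  have h1 : (inner ℝ (J w) w : ℝ) = 0 := by rw [real_inner_comm]; exact h0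
  have h2 : (inner ℝ (J w) (J w) : ℝ) = inner ℝ w w := J.inner_map_map w w
  rw [← real_inner_self_eq_norm_sq, ← real_inner_self_eq_norm_sq, ← real_inner_self_eq_norm_sq]
  simp only [inner_sub_left, inner_sub_right, inner_smul_left, inner_smul_right, h0, h1, h2,
    RCLike.conj_to_real]
  rw [real_inner_comm x w, real_inner_comm x (J w)]
  ring

variable [FiniteDimensional ℝ V]

theorem cref {J : V ≃ₗᵢ[ℝ] V} (hJ : ∀ x, J (J x) = -x) {a b : V} (ha : ‖a‖ = 1) (hb : ‖b‖ = 1) :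
    ∃ g : V ≃ₗᵢ[ℝ] V, (∀ x, g (J x) = J (g x)) ∧ g a = b ∧
      ∀ x, inner ℝ a x = (0 : ℝ) → inner ℝ b x = (0 : ℝ) → inner ℝ (J a) x = (0 : ℝ) →
        inner ℝ (J b) x = (0 : ℝ) → g x = x := by
  by_cases hab : a = b
  · exact ⟨LinearIsometryEquiv.refl ℝ V, fun x => rfl, hab, fun x _ _ _ _ => rfl⟩
  obtain ⟨w, hw⟩ : ∃ w, w = a - b := ⟨_, rfl⟩
  have hw0 : 0 < ‖w‖ ^ 2 := by
    have : w ≠ 0 := by rw [hw]; exact sub_ne_zero.2 hab
    positivity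
  obtain ⟨P, hP⟩ : ∃ P : ℝ, P = inner ℝ w a := ⟨_, rfl⟩
  obtain ⟨Q, hQ⟩ : ∃ Q : ℝ, Q = inner ℝ (J w) a := ⟨_, rfl⟩
  have hwP : ‖w‖ ^ 2 = 2 * P := by
    rw [hP, hw, norm_sub_sq_real, inner_sub_left, real_inner_self_eq_norm_sq, ha, hb,
      real_inner_comm a b]
    ring
  have hP0 : 0 < P := by linarith
  have hD : 0 < P ^ 2 + Q ^ 2 := by positivity
  obtain ⟨c, hc⟩ : ∃ c : ℝ, c = P / (P ^ 2 + Q ^ 2) := ⟨_, rfl⟩
  obtain ⟨d, hd⟩ : ∃ d : ℝ, d = -Q / (P ^ 2 + Q ^ 2) := ⟨_, rfl⟩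
  have hcd1 : c * P - d * Q = 1 := by
    rw [hc, hd]; field_simp; ring
  have hcd2 : c * Q + d * P = 0 := by
    rw [hc, hd]; field_simp; ring
  have hcd3 : (c ^ 2 + d ^ 2) * (2 * P) = 2 * c := by
    rw [hc, hd]; field_simp
  let L : V →ₗ[ℝ] V :=
    { toFun := fun x => x - (c * inner ℝ w x - d * inner ℝ (J w) x) • w -
        (c * inner ℝ (J w) x + d * inner ℝ w x) • J w
      map_add' := fun x y => by
        simp only [inner_add_right]
        module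
      map_smul' := fun r x => by
        simp only [inner_smul_right, RingHom.id_apply]
        module }
  have hL : ∀ x, L x = x - (c * inner ℝ w x - d * inner ℝ (J w) x) • w -
        (c * inner ℝ (J w) x + d * inner ℝ w x) • J w := fun x => rfl
  have hn : ∀ x, ‖L x‖ = ‖x‖ := by
    intro x
    have h2 : ‖L x‖ ^ 2 = ‖x‖ ^ 2 := by
      rw [hL, expand hJ, hwP]
      have e := hcd3
      linear_combination (inner ℝ w x ^ 2 + inner ℝ (J w) x ^ 2) * e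
    exact (pow_left_inj₀ (norm_nonneg _) (norm_nonneg _) two_ne_zero).1 h2
  let g : V ≃ₗᵢ[ℝ] V := (⟨L, hn⟩ : V →ₗᵢ[ℝ] V).toLinearIsometryEquiv rfl
  have hg : ∀ x, g x = L x := fun x => rfl
  refine ⟨g, fun x => ?_, ?_, fun x h1 h2 h3 h4 => ?_⟩
  · rw [hg, hg, hL, hL, skew hJ w x, J.inner_map_map]
    simp only [map_sub, map_smul, hJ]
    module
  · rw [hg, hL, ← hP, ← hQ, hcd1, hcd2, hw]
    module
  · have e1 : (inner ℝ w x : ℝ) = 0 := by rw [hw, inner_sub_left, h1, h2, sub_zero]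
    have e2 : (inner ℝ (J w) x : ℝ) = 0 := by
      rw [hw, map_sub, inner_sub_left, h3, h4, sub_zero]
    rw [hg, hL, e1, e2]
    simp

/-- ROW R4 -/
theorem row_U {J : V ≃ₗᵢ[ℝ] V} (hJ : ∀ x, J (J x) = -x) {e u e' u' : V}
    (he : ‖e‖ = 1) (hu : ‖u‖ = 1) (heu : inner ℝ e u = (0 : ℝ)) (heJ : inner ℝ e (J u) = (0 : ℝ))
    (he' : ‖e'‖ = 1) (hu' : ‖u'‖ = 1) (heu' : inner ℝ e' u' = (0 : ℝ))
    (heJ' : inner ℝ e' (J u') = (0 : ℝ)) :
    ∃ g : V ≃ₗᵢ[ℝ] V, (∀ x, g (J x) = J (g x)) ∧ g e' = e ∧ g u' = u := by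
  obtain ⟨g, hg, hge, -⟩ := cref hJ he' he
  obtain ⟨k, hk, hku, hkf⟩ := cref hJ (a := g u') (b := u) (by rw [g.norm_map, hu']) hu
  refine ⟨g.trans k, fun x => ?_, ?_, ?_⟩
  · simp only [LinearIsometryEquiv.trans_apply, hg, hk]
  · rw [LinearIsometryEquiv.trans_apply, hge]
    refine hkf e ?_ ?_ ?_ ?_
    · rw [← hge, g.inner_map_map, real_inner_comm]; exact heu'
    · rw [real_inner_comm]; exact heu
    · rw [← hge, ← hg, g.inner_map_map, real_inner_comm]; exact heJ'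
    · rw [real_inner_comm]; exact heJ
  · rw [LinearIsometryEquiv.trans_apply, hku]

end

end Vale.Agent.P220.R2.H971
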